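import Mathlib
import Vale.Agent.P037.Defs

/-! P037: definitions for the theorem on interleaved slowly varying classes (shown to the judges; keep small). -/

namespace Vale.Agent.P037

/-- `x'` is the next row after `x` with the same colour. -/
def NextSame {n : ℕ} (τ : Fin n → ℕ) (x x' : Fin n) : Prop :=
  x < x' ∧ τ x = τ x' ∧ ∀ y : Fin n, x < y → y < x' → τ y ≠ τ x

open Classical in
/-- class-wise vertical variation: the number of triples `(x, x', c)` such that `x'` is the next row after `x` with the
same colour and `A x c ≠ A x' c`. -/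
noncomputable def classVar {n : ℕ} (τ : Fin n → ℕ) (A : Fin n → Fin n → Bool) : ℕ :=
  (Finset.univ.filter (fun p : Fin n × Fin n × Fin n =>
    NextSame τ p.1 p.2.1 ∧ A p.1 p.2.2 ≠ A p.2.1 p.2.2)).card

/-- every colour that occurs at all occurs among any `g` consecutive rows. -/
def Syndetic {n : ℕ} (τ : Fin n → ℕ) (g : ℕ) : Prop :=
  ∀ (a : ℕ) (x : Fin n), a + g ≤ n → ∃ y : Fin n, a ≤ y.1 ∧ y.1 < a + g ∧ τ y = τ x

end Vale.Agent.P037
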