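import Mathlib
import Vale.Agent.P037.Defs
import Vale.Agent.P037.BlowCount
import Vale.Agent.P037.FewRows
import Vale.Agent.P037.TV
import Vale.Agent.P037.TVAll
import Vale.Agent.P037.Syn37.Defs

/-!
# P037: EVERY pattern, hosts = interleavings of slowly varying classes that are present everywhere   (helper37)

Rows are coloured by `τ`; every colour occurs among any `g` consecutive rows; consecutive rows of the same colour differ in at most `V n` entries in total.
Blocks of `R` rows (the last one longer), in each block a ZONE `[l R + o, l R + o + z)`.  Columns with an event (change between consecutive rows of one colour) inside a zone are DELETED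
(set to 0) globally: few, for a good offset `o`.  On the other columns all rows of one colour in a zone are equal.  `B x` = the row of the colour of `x` in the zone of the block of `x`.
`B` has at most `(n / R) g` distinct rows and is close to `A`; `few_rows_nat` gives many copies in `B`; most of them avoid the deleted columns; each such copy gives `z2^k` copies of `A`
with rows in the zones (the `i`-th row in the `i`-th part of the zone), while at most `(2R)^k` copies of `B` give the same ones.
-/

namespace Vale.Agent.P037.Syn37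

open Vale.Agent.P037

open Finset

open scoped Classical

variable {k n : ℕ}

/-- the set of events -/
noncomputable def events (τ : Fin n → ℕ) (A : Fin n → Fin n → Bool) : Finset (Fin n × Fin n × Fin n) :=
  univ.filter (fun p : Fin n × Fin n × Fin n => NextSame τ p.1 p.2.1 ∧ A p.1 p.2.2 ≠ A p.2.1 p.2.2)

theorem card_events (τ : Fin n → ℕ) (A : Fin n → Fin n → Bool) : (events τ A).card = classVar τ A := by
  unfold events classVar
  congr

/-- events whose first row lies in a zone -/
noncomputable def zevents (τ : Fin n → ℕ) (A : Fin n → Fin n → Bool) (R o z : ℕ) :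
    Finset (Fin n × Fin n × Fin n) :=
  (events τ A).filter (fun p => o ≤ p.1.1 % R ∧ p.1.1 % R < o + z)

/-- the deleted columns -/
noncomputable def Del (τ : Fin n → ℕ) (A : Fin n → Fin n → Bool) (R o z : ℕ) : Finset (Fin n) :=
  (zevents τ A R o z).image (fun p => p.2.2)

/-- the block of the row `x` (the last block absorbs the remainder) -/
def blk (n R x : ℕ) : ℕ := min (x / R) (n / R - 1)

/-- `pick l q x` is a row of the colour of `x` in the `q`-th interval of length `g` of the zone of block `l`. -/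
def IsPick (n R o z g : ℕ) (τ : Fin n → ℕ) (pick : ℕ → ℕ → Fin n → Fin n) : Prop :=
  ∀ (l q : ℕ) (x : Fin n), l < n / R → (q + 1) * g ≤ z →
    l * R + o + q * g ≤ (pick l q x).1 ∧ (pick l q x).1 < l * R + o + q * g + g ∧ τ (pick l q x) = τ x

/-- the rounded matrix -/
noncomputable def Bm (A : Fin n → Fin n → Bool) (D : Finset (Fin n)) (pick : ℕ → ℕ → Fin n → Fin n) (R : ℕ) :
    Fin n → Fin n → Bool :=
  fun x c => if c ∈ D then false else A (pick (blk n R x.1) 0 x) c

/-- [S1] discrete intermediate value along one colour.  Strong induction on `y.1 - x.1`.  Let `u'` be the least row `> x` with colour `τ x` (the set `univ.filter (fun v => x < v ∧ τ v = τ x)` contains `y`; `Finset.min'`).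
Then `NextSame τ x u'`, `u' ≤ y`.  If `A x c ≠ A u' c` take `(x, u')`.  Otherwise `A u' c ≠ A y c`, so `u' ≠ y`, `u' < y`, `τ u' = τ y`: induction hypothesis for `(u', y)`. -/
theorem exists_event (τ : Fin n → ℕ) (A : Fin n → Fin n → Bool) (c x y : Fin n) (hxy : x < y)
    (hτ : τ x = τ y) (h : A x c ≠ A y c) :
    ∃ u u' : Fin n, x ≤ u ∧ u' ≤ y ∧ NextSame τ u u' ∧ A u c ≠ A u' c := by
  induction hd : y.1 - x.1 using Nat.strong_induction_on generalizing x with
  | _ d ih =>
    have hne : (univ.filter (fun v : Fin n => x < v ∧ τ v = τ x)).Nonempty :=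
      ⟨y, by simp only [mem_filter, mem_univ, true_and]; exact ⟨hxy, hτ.symm⟩⟩
    obtain ⟨w, hw⟩ : ∃ w, w = (univ.filter (fun v : Fin n => x < v ∧ τ v = τ x)).min' hne := ⟨_, rfl⟩
    have hwm : w ∈ univ.filter (fun v : Fin n => x < v ∧ τ v = τ x) := by
      rw [hw]; exact Finset.min'_mem _ _
    simp only [mem_filter, mem_univ, true_and] at hwm
    have hwy : w ≤ y := by
      rw [hw]
      apply Finset.min'_le
      simp only [mem_filter, mem_univ, true_and]
      exact ⟨hxy, hτ.symm⟩
    have hnext : NextSame τ x w := by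
      refine ⟨hwm.1, hwm.2.symm, fun z hxz hzw hz => ?_⟩
      have : w ≤ z := by
        rw [hw]
        apply Finset.min'_le
        simp only [mem_filter, mem_univ, true_and]
        exact ⟨hxz, hz⟩
      exact absurd hzw (not_lt.2 this)
    by_cases hA : A x c = A w c
    · have hwy' : A w c ≠ A y c := fun h' => h (hA.trans h')
      have hne' : w ≠ y := fun h' => hwy' (by rw [h'])
      have hlt : w < y := lt_of_le_of_ne hwy hne'
      have h1 : x.1 < w.1 := hwm.1
      have h2 : w.1 < y.1 := hlt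
      obtain ⟨u, u', hu, hu', hn, hAu⟩ := ih (y.1 - w.1) (by omega) w hlt (hwm.2.trans hτ) hwy' rfl
      exact ⟨u, u', le_trans (le_of_lt hwm.1) hu, hu', hn, hAu⟩
    · exact ⟨x, w, le_refl _, hwy, hnext, hA⟩

/-- [S2] averaging over the offset.  `∑ o ∈ range (R - z + 1), (zevents .. o z).card ≤ z * (events).card`: write the card as `∑ p ∈ events, if (o ≤ p.1 % R ∧ p.1 % R < o + z) then 1 else 0` (`Finset.card_filter`), `Finset.sum_comm`;
for fixed `p` the `o` with `o ≤ v < o + z` (`v = p.1 % R`) lie in `Ioc (v - z) v`-like set: at most `z` of them (inject `o ↦ v - o ∈ range z`).  Then `Finset.exists_le_of_sum_le` /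
by contradiction: if `(R - z + 1) * card > z * classVar` for all `o` in the range then summing gives a contradiction.  `o ∈ range (R - z + 1)` and `z ≤ R` give `o + z ≤ R`. -/
theorem exists_offset (τ : Fin n → ℕ) (A : Fin n → Fin n → Bool) (R z : ℕ) (hz : z ≤ R) :
    ∃ o, o + z ≤ R ∧ (R - z + 1) * (zevents τ A R o z).card ≤ z * classVar τ A := by
  have hsum : ∑ o ∈ range (R - z + 1), (zevents τ A R o z).card ≤ z * classVar τ A := by
    rw [← card_events τ A]
    have h1 : ∀ o, (zevents τ A R o z).card =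
        ∑ p ∈ events τ A, if (o ≤ p.1.1 % R ∧ p.1.1 % R < o + z) then 1 else 0 := by
      intro o
      unfold zevents
      rw [Finset.card_filter]
    simp only [h1]
    rw [Finset.sum_comm]
    have h2 : ∀ p ∈ events τ A, (∑ o ∈ range (R - z + 1),
        if (o ≤ p.1.1 % R ∧ p.1.1 % R < o + z) then 1 else 0) ≤ z := by
      intro p _
      rw [← Finset.card_filter]
      have hsub : ((range (R - z + 1)).filter fun o => o ≤ p.1.1 % R ∧ p.1.1 % R < o + z) ⊆
          Finset.Icc (p.1.1 % R + 1 - z) (p.1.1 % R) := by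
        intro o ho
        rw [mem_filter] at ho
        rw [Finset.mem_Icc]
        omega
      have h3 := card_le_card hsub
      rw [Nat.card_Icc] at h3
      omega
    calc _ ≤ ∑ _p ∈ events τ A, z := Finset.sum_le_sum h2
      _ = z * (events τ A).card := by rw [Finset.sum_const, smul_eq_mul, mul_comm]
  by_contra hcon
  push Not at hcon
  have h4 : ∀ o ∈ range (R - z + 1), z * classVar τ A + 1 ≤ (R - z + 1) * (zevents τ A R o z).card := by
    intro o ho
    have := mem_range.1 ho
    exact hcon o (by omega)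
  have h5 := Finset.sum_le_sum h4
  rw [Finset.sum_const, card_range, smul_eq_mul, ← Finset.mul_sum] at h5
  have h6 : (R - z + 1) * ∑ o ∈ range (R - z + 1), (zevents τ A R o z).card ≤
      (R - z + 1) * (z * classVar τ A) := Nat.mul_le_mul_left _ hsum
  have h7 : (R - z + 1) * (z * classVar τ A + 1) = (R - z + 1) * (z * classVar τ A) + (R - z + 1) := by
    ring
  omega

/-- [S3] `Finset.card_image_le`. -/
theorem card_Del_le (τ : Fin n → ℕ) (A : Fin n → Fin n → Bool) (R o z : ℕ) :
    (Del τ A R o z).card ≤ (zevents τ A R o z).card := by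
  unfold Del
  exact Finset.card_image_le

/-- [S4] zone stability.  By contradiction, WLOG `y < y'` (`lt_trichotomy`; `y = y'` is trivial; symmetric case by `Ne.symm`): `exists_event` gives an event `(u, u', c)` with `y ≤ u`, `u' ≤ y'`, `u < u'`; so `l R + o ≤ u < l R + o + z ≤ (l+1) R`,
hence `u % R = u - l R` (`Nat.mod_eq_sub`-style: `u = l * R + (u - l * R)`, `Nat.mul_add_mod`, `Nat.mod_eq_of_lt`), which lies in `[o, o + z)`; so `(u, u', c) ∈ zevents` and `c ∈ Del` (`Finset.mem_image`). -/
theorem zone_stable (τ : Fin n → ℕ) (A : Fin n → Fin n → Bool) (R o z l : ℕ) (hoz : o + z ≤ R)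
    (y y' c : Fin n) (hy : l * R + o ≤ y.1 ∧ y.1 < l * R + o + z)
    (hy' : l * R + o ≤ y'.1 ∧ y'.1 < l * R + o + z) (hτ : τ y = τ y') (hc : c ∉ Del τ A R o z) :
    A y c = A y' c := by
  have key : ∀ (y y' : Fin n), (l * R + o ≤ y.1 ∧ y.1 < l * R + o + z) →
      (l * R + o ≤ y'.1 ∧ y'.1 < l * R + o + z) → τ y = τ y' → y < y' → A y c ≠ A y' c → False := by
    intro y y' hy hy' hτ hlt hne
    obtain ⟨u, u', h1, h2, hN, hA⟩ := exists_event τ A c y y' hlt hτ hne
    apply hc
    unfold Del
    rw [Finset.mem_image]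
    refine ⟨(u, u', c), ?_, rfl⟩
    unfold zevents events
    simp only [Finset.mem_filter, Finset.mem_univ, true_and]
    have hu1 : y.1 ≤ u.1 := h1
    have hu2 : u'.1 ≤ y'.1 := h2
    have hu3 : u.1 < u'.1 := hN.1
    obtain ⟨t, ht⟩ : ∃ t, u.1 = l * R + t := ⟨u.1 - l * R, by omega⟩
    have htR : t < R := by omega
    have hmod : u.1 % R = t := by
      rw [ht, Nat.mul_add_mod', Nat.mod_eq_of_lt htR]
    refine ⟨⟨hN, hA⟩, ?_, ?_⟩ <;> omega
  by_contra hne
  rcases lt_trichotomy y y' with h | h | h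
  · exact key y y' hy hy' hτ h hne
  · exact hne (by rw [h])
  · exact key y' y hy' hy hτ.symm h (Ne.symm hne)

/-- [S5] existence of `pick`.  For `l < n / R`, `(q+1) g ≤ z`: `a = l R + o + q g`, `a + g ≤ l R + o + z ≤ (l + 1) R ≤ (n / R) R ≤ n` (`Nat.div_mul_le_self`), so `hsyn a x _` gives `y`.
Define `pick l q x = if h : l < n / R ∧ (q+1) g ≤ z then Classical.choose (hsyn ..) else x`, or use `Classical.skolem`/`choose` after stating `∀ l q x, ∃ y, (l < n / R → (q+1) g ≤ z → ...)`. -/
theorem exists_pick (τ : Fin n → ℕ) (R o z g : ℕ) (hoz : o + z ≤ R) (hsyn : Syndetic τ g) :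
    ∃ pick : ℕ → ℕ → Fin n → Fin n, IsPick n R o z g τ pick := by
  have key : ∀ (l q : ℕ) (x : Fin n), ∃ y : Fin n, l < n / R → (q + 1) * g ≤ z →
      l * R + o + q * g ≤ y.1 ∧ y.1 < l * R + o + q * g + g ∧ τ y = τ x := by
    intro l q x
    by_cases h : l < n / R ∧ (q + 1) * g ≤ z
    · obtain ⟨hl, hq⟩ := h
      have h1 : (l + 1) * R ≤ n / R * R := Nat.mul_le_mul_right R hl
      have h2 : n / R * R ≤ n := Nat.div_mul_le_self n R
      have h3 : (q + 1) * g = q * g + g := by ring
      have h4 : (l + 1) * R = l * R + R := by ring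
      have ha : (l * R + o + q * g) + g ≤ n := by omega
      obtain ⟨y, hy1, hy2, hy3⟩ := hsyn (l * R + o + q * g) x ha
      exact ⟨y, fun _ _ => ⟨hy1, hy2, hy3⟩⟩
    · exact ⟨x, fun hl hq => absurd ⟨hl, hq⟩ h⟩
  choose pick hpick using key
  exact ⟨pick, fun l q x hl hq => hpick l q x hl hq⟩

/-- [S6] facts on blocks (`0 < R ≤ n`, so `1 ≤ n / R`).  `blk = min (x / R) (n / R - 1)`.  `blk * R ≤ (x / R) * R ≤ x`.  If `x / R ≤ n / R - 1` then `x < (x / R + 1) R`; otherwise `blk = n / R - 1` and `x < n < (n / R + 1) R = blk R + 2 R`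
(`Nat.lt_div_mul_add`/`Nat.div_add_mod`, `Nat.mod_lt`). -/
theorem blk_spec (R x : ℕ) (hR : 0 < R) (hRn : R ≤ n) (hx : x < n) :
    blk n R x < n / R ∧ blk n R x * R ≤ x ∧ x < blk n R x * R + 2 * R := by
  unfold blk
  have h1 : x / R * R ≤ x := Nat.div_mul_le_self x R
  have h2 : x < x / R * R + R := by
    have e1 := Nat.div_add_mod x R
    have e2 := Nat.mod_lt x hR
    have e3 := Nat.mul_comm R (x / R)
    omega
  have h3 : n < n / R * R + R := by
    have e1 := Nat.div_add_mod n R
    have e2 := Nat.mod_lt n hR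
    have e3 := Nat.mul_comm R (n / R)
    omega
  have h4 : 1 ≤ n / R := Nat.div_pos hRn hR
  generalize x / R = a at *
  generalize n / R = b at *
  obtain ⟨c, rfl⟩ : ∃ c, b = c + 1 := ⟨b - 1, by omega⟩
  simp only [Nat.add_sub_cancel]
  have e : (c + 1) * R = c * R + R := by ring
  rcases le_total a c with h | h
  · rw [min_eq_left h]
    exact ⟨by omega, h1, by omega⟩
  · rw [min_eq_right h]
    have h5 : c * R ≤ a * R := Nat.mul_le_mul_right R h
    exact ⟨by omega, by omega, by omega⟩

/-- [S7] `blk` is monotone (`Nat.div_le_div_right`, `min_le_min_right`). -/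
theorem blk_mono (R : ℕ) {x y : ℕ} (h : x ≤ y) : blk n R x ≤ blk n R y := by
  unfold blk
  exact min_le_min_right _ (Nat.div_le_div_right h)

/-- [S8] a row inside `[l R, (l+1) R)` with `l < n / R` has block `l` (`Nat.div_eq_of_lt_le` / `Nat.div_eq_iff`, `min_eq_left`). -/
theorem blk_eq (R l y : ℕ) (hR : 0 < R) (hl : l < n / R) (h1 : l * R ≤ y) (h2 : y < (l + 1) * R) :
    blk n R y = l := by
  unfold blk
  have e : y / R = l := Nat.div_eq_of_lt_le h1 h2
  rw [e]
  omega

/-- [S9] `Bm` depends only on the block and the colour: for `c ∈ D` both sides are `false`; otherwise `zone_stable` for the two picked rows (`hpick l 0 x`, `hpick l 0 x'`, `l = blk`, `blk_spec`; they lie in `[l R + o, l R + o + g) ⊆` zone since `g ≤ z`;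
their colours are `τ x = τ x'`). -/
theorem Bm_eq_of (τ : Fin n → ℕ) (A : Fin n → Fin n → Bool) (R o z g : ℕ) (hR : 0 < R) (hRn : R ≤ n)
    (hoz : o + z ≤ R) (hgz : g ≤ z) (pick : ℕ → ℕ → Fin n → Fin n) (hpick : IsPick n R o z g τ pick)
    (x x' : Fin n) (hb : blk n R x.1 = blk n R x'.1) (hτ : τ x = τ x') :
    Bm A (Del τ A R o z) pick R x = Bm A (Del τ A R o z) pick R x' := by
  funext c
  unfold Bm
  by_cases hc : c ∈ Del τ A R o z
  · rw [if_pos hc, if_pos hc]
  · rw [if_neg hc, if_neg hc, ← hb]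
    have hl := (blk_spec R x.1 hR hRn x.2).1
    have hg : (0 + 1) * g ≤ z := by simpa using hgz
    obtain ⟨a1, a2, a3⟩ := hpick (blk n R x.1) 0 x hl hg
    obtain ⟨b1, b2, b3⟩ := hpick (blk n R x.1) 0 x' hl hg
    refine zone_stable τ A R o z (blk n R x.1) hoz _ _ c ⟨by omega, by omega⟩ ⟨by omega, by omega⟩
      ?_ hc
    rw [a3, b3, hτ]

/-- [S10] at most `g` colours: by `hsyn 0 x` every colour is the colour of one of the rows `0, .., g - 1`: `univ.image τ ⊆ (univ.filter (fun y : Fin n => y.1 < g)).image τ`, whose card is `≤ g`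
(`card_image_le`; the filter injects into `range g` by `Fin.val`). -/
theorem card_colours_le (τ : Fin n → ℕ) (g : ℕ) (hgn : g ≤ n) (hsyn : Syndetic τ g) :
    (univ.image τ).card ≤ g := by
  have hsub : univ.image τ ⊆ (univ.filter (fun y : Fin n => y.1 < g)).image τ := by
    intro c hc
    rw [mem_image] at hc ⊢
    obtain ⟨x, _, rfl⟩ := hc
    obtain ⟨y, _, hy, hτ⟩ := hsyn 0 x (by omega)
    exact ⟨y, by rw [mem_filter]; exact ⟨mem_univ _, by omega⟩, hτ⟩
  have hcard : (univ.filter (fun y : Fin n => y.1 < g)).card ≤ g := by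
    have h1 : (univ.filter (fun y : Fin n => y.1 < g)).card ≤ (range g).card := by
      apply card_le_card_of_injOn (fun y : Fin n => y.1)
      · intro y hy
        have hy' := (mem_filter.1 (mem_coe.1 hy)).2
        exact mem_coe.2 (mem_range.2 hy')
      · intro a _ b _ hab
        exact Fin.ext hab
    rwa [card_range] at h1
  exact (card_le_card hsub).trans (card_image_le.trans hcard)

/-- [S11] few distinct rows.  The image of `Bm ..` has at most as many elements as the image of `x ↦ (blk n R x, τ x)` (by `Bm_eq_of`: choose a preimage; `Finset.card_le_card_of_surjOn` or: `image Bm = image (F ∘ f)`),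
which is contained in `range (n / R) ×ˢ univ.image τ` (`blk_spec`), of card `≤ (n / R) * g` (`card_colours_le`). -/
theorem card_image_Bm_le (τ : Fin n → ℕ) (A : Fin n → Fin n → Bool) (R o z g : ℕ) (hR : 0 < R)
    (hRn : R ≤ n) (hoz : o + z ≤ R) (hgz : g ≤ z) (hsyn : Syndetic τ g)
    (pick : ℕ → ℕ → Fin n → Fin n) (hpick : IsPick n R o z g τ pick) :
    (univ.image (Bm A (Del τ A R o z) pick R)).card ≤ n / R * g := by
  set f : Fin n → ℕ × ℕ := fun x => (blk n R x.1, τ x) with hf
  set B := Bm A (Del τ A R o z) pick R with hB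
  let F : ℕ × ℕ → (Fin n → Bool) := fun p => if h : ∃ x, f x = p then B h.choose else fun _ => false
  have h1 : univ.image B ⊆ (univ.image f).image F := by
    intro w hw
    obtain ⟨x, -, rfl⟩ := mem_image.mp hw
    refine mem_image.mpr ⟨f x, mem_image_of_mem f (mem_univ x), ?_⟩
    have hex : ∃ y, f y = f x := ⟨x, rfl⟩
    have hc := hex.choose_spec
    show (if h : ∃ y, f y = f x then B h.choose else fun _ => false) = B x
    rw [dif_pos hex]
    have h2 : blk n R hex.choose.1 = blk n R x.1 := congrArg Prod.fst hc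
    have h3 : τ hex.choose = τ x := congrArg Prod.snd hc
    exact Bm_eq_of τ A R o z g hR hRn hoz hgz pick hpick _ _ h2 h3
  have h2 : univ.image f ⊆ range (n / R) ×ˢ univ.image τ := by
    intro p hp
    obtain ⟨x, -, rfl⟩ := mem_image.mp hp
    rw [mem_product]
    exact ⟨mem_range.mpr (blk_spec R x.1 hR hRn x.2).1, mem_image_of_mem τ (mem_univ x)⟩
  have hgn : g ≤ n := by omega
  calc (univ.image B).card ≤ ((univ.image f).image F).card := card_le_card h1
    _ ≤ (univ.image f).card := card_image_le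
    _ ≤ (range (n / R) ×ˢ univ.image τ).card := card_le_card h2
    _ = n / R * (univ.image τ).card := by rw [card_product, card_range]
    _ ≤ n / R * g := Nat.mul_le_mul_left _ (card_colours_le τ g hgn hsyn)

/-- [S12] distance.  The differing entries `(x, c)`: either `c ∈ D` (at most `D.card * n` of them: subset of `univ ×ˢ D`), or `c ∉ D` and `A x c ≠ A y c`, `y = pick (blk x) 0 x`, `τ y = τ x`, `y ≠ x`.  `exists_event` (for `x < y` or `y < x`) gives an event `(u, u', c)` with `u`
between `x` and `y`, so `blk u = blk x` (`blk_mono` twice; `blk y = blk x` by `blk_eq`: `l R ≤ l R + o ≤ y < l R + o + g ≤ (l + 1) R`).  Injection of these `(x, c)` into `range (2 R) ×ˢ events`: `(x, c) ↦ (x - blk x * R, (u, u', c))` (`blk_spec`);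
injective since `x = blk u * R + (x - blk x * R)`.  `card_union_le`, `card_product`, `card_range`, `card_events`. -/
theorem diffCount_Bm_le (τ : Fin n → ℕ) (A : Fin n → Fin n → Bool) (R o z g : ℕ) (hR : 0 < R)
    (hRn : R ≤ n) (hoz : o + z ≤ R) (hgz : g ≤ z) (D : Finset (Fin n))
    (pick : ℕ → ℕ → Fin n → Fin n) (hpick : IsPick n R o z g τ pick) :
    diffCount A (Bm A D pick R) ≤ D.card * n + 2 * R * classVar τ A := by
  unfold diffCount
  set F := univ.filter (fun p : Fin n × Fin n => A p.1 p.2 ≠ Bm A D pick R p.1 p.2) with hF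
  have hex : ∀ p : Fin n × Fin n, ∃ e : Fin n × Fin n × Fin n, (p ∈ F ∧ p.2 ∉ D) →
      (e ∈ events τ A ∧ e.2.2 = p.2 ∧ blk n R e.1.1 = blk n R p.1.1) := by
    rintro ⟨x, c⟩
    by_cases hp : (x, c) ∈ F ∧ c ∉ D
    · obtain ⟨hp1, hp2⟩ := hp
      rw [hF, mem_filter] at hp1
      have hne : A x c ≠ A (pick (blk n R x.1) 0 x) c := by
        have h := hp1.2
        simp only [Bm, if_neg hp2] at h
        exact h
      have hb := blk_spec (n := n) R x.1 hR hRn x.2
      have hpk := hpick (blk n R x.1) 0 x hb.1 (by omega)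
      set y := pick (blk n R x.1) 0 x with hy
      set l := blk n R x.1 with hl
      have hby : blk n R y.1 = l := by
        apply blk_eq R l y.1 hR hb.1
        · omega
        · have : (l + 1) * R = l * R + R := by ring
          omega
      have hxy : x ≠ y := by
        intro h
        apply hne
        rw [← h]
      rcases lt_or_gt_of_ne hxy with h | h
      · obtain ⟨u, u', h1, h2, h3, h4⟩ := exists_event τ A c x y h hpk.2.2.symm hne
        refine ⟨(u, u', c), fun _ => ⟨?_, rfl, ?_⟩⟩
        · unfold events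
          rw [mem_filter]
          exact ⟨mem_univ _, h3, h4⟩
        · have h5 : u.1 ≤ y.1 := le_trans (le_of_lt h3.1) h2
          have h6 := blk_mono (n := n) R (show x.1 ≤ u.1 from h1)
          have h7 := blk_mono (n := n) R h5
          show blk n R u.1 = blk n R x.1
          omega
      · obtain ⟨u, u', h1, h2, h3, h4⟩ := exists_event τ A c y x h hpk.2.2 (Ne.symm hne)
        refine ⟨(u, u', c), fun _ => ⟨?_, rfl, ?_⟩⟩
        · unfold events
          rw [mem_filter]
          exact ⟨mem_univ _, h3, h4⟩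
        · have h5 : u.1 ≤ x.1 := le_trans (le_of_lt h3.1) h2
          have h6 := blk_mono (n := n) R (show y.1 ≤ u.1 from h1)
          have h7 := blk_mono (n := n) R h5
          show blk n R u.1 = blk n R x.1
          omega
    · exact ⟨(x, x, c), fun h => absurd h hp⟩
  choose f hf using hex
  have hsub : F ⊆ (univ ×ˢ D) ∪ F.filter (fun p => p.2 ∉ D) := by
    intro p hp
    by_cases hD : p.2 ∈ D
    · exact mem_union_left _ (mem_product.2 ⟨mem_univ _, hD⟩)
    · exact mem_union_right _ (mem_filter.2 ⟨hp, hD⟩)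
  have h2 : (F.filter (fun p => p.2 ∉ D)).card ≤ (range (2 * R) ×ˢ events τ A).card := by
    apply Finset.card_le_card_of_injOn (fun p => (p.1.1 - blk n R p.1.1 * R, f p))
    · intro p hp
      have hp' := mem_filter.1 (Finset.mem_coe.1 hp)
      have h3 := hf p hp'
      have hb := blk_spec (n := n) R p.1.1 hR hRn p.1.2
      apply Finset.mem_coe.2
      rw [mem_product, mem_range]
      exact ⟨by show p.1.1 - blk n R p.1.1 * R < 2 * R; omega, h3.1⟩
    · intro p hp p' hp' heq
      have hq := hf p (mem_filter.1 (Finset.mem_coe.1 hp))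
      have hq' := hf p' (mem_filter.1 (Finset.mem_coe.1 hp'))
      simp only [Prod.mk.injEq] at heq
      obtain ⟨e1, e2⟩ := heq
      have hb := blk_spec (n := n) R p.1.1 hR hRn p.1.2
      have hb' := blk_spec (n := n) R p'.1.1 hR hRn p'.1.2
      have e3 : blk n R p.1.1 = blk n R p'.1.1 := by rw [← hq.2.2, ← hq'.2.2, e2]
      have e4 : p.2 = p'.2 := by rw [← hq.2.1, ← hq'.2.1, e2]
      have e5 : p.1 = p'.1 := by
        apply Fin.ext
        rw [e3] at e1 hb
        omega
      exact Prod.ext e5 e4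
  calc F.card ≤ ((univ ×ˢ D) ∪ F.filter (fun p => p.2 ∉ D)).card := card_le_card hsub
    _ ≤ (univ ×ˢ D).card + (F.filter (fun p => p.2 ∉ D)).card := card_union_le _ _
    _ ≤ D.card * n + 2 * R * classVar τ A := by
        rw [card_product, card_univ, Fintype.card_fin] 
        rw [card_product, card_range, card_events] at h2
        nlinarith [h2]

/-- copies of `H` in `M` whose columns avoid `D` -/
noncomputable def kept (H : Fin k → Fin k → Bool) (M : Fin n → Fin n → Bool) (D : Finset (Fin n)) :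
    Finset ((Fin k → Fin n) × (Fin k → Fin n)) :=
  univ.filter (fun p => IsCopy H M p.1 p.2 ∧ ∀ j, p.2 j ∉ D)

/-- [S13] the pairs `(r, c)` with `c j ∈ D`: `card = n^k * (D.card * n^(k-1))`; enough: `≤`.  Inject `(r, c) ↦ (r, c j, c ∘ j.succAbove)` (write `k = k' + 1`), or: the set of `c` with `c j ∈ D` is `Fintype.piFinset (fun i => if i = j then D else univ)`, `Fintype.card_piFinset`, `Finset.prod_ite_eq`-style
(`Finset.prod_eq_mul_prod_diff_singleton`/`Fintype.prod_eq_mul_prod_compl`).  `n^k * (D.card * n^(k-1)) = D.card * n^(2k-1)` (`← pow_add`, `k + (k-1) = 2k-1`). -/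
theorem card_col_in_le (D : Finset (Fin n)) (hk : 0 < k) (j : Fin k) :
    (univ.filter (fun p : (Fin k → Fin n) × (Fin k → Fin n) => p.2 j ∈ D)).card ≤
      D.card * n ^ (2 * k - 1) := by
  have h1 : (univ.filter (fun p : (Fin k → Fin n) × (Fin k → Fin n) => p.2 j ∈ D))
      = (univ : Finset (Fin k → Fin n)) ×ˢ
        Fintype.piFinset (fun i : Fin k => if i = j then D else (univ : Finset (Fin n))) := by
    ext p
    simp only [mem_filter, mem_univ, true_and, mem_product, Fintype.mem_piFinset]
    constructor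
    · intro h i
      by_cases hi : i = j
      · rw [if_pos hi, hi]; exact h
      · rw [if_neg hi]; exact mem_univ _
    · intro h
      have := h j
      rwa [if_pos rfl] at this
  have h2 : ∏ i : Fin k, (if i = j then D else (univ : Finset (Fin n))).card
      = D.card * n ^ (k - 1) := by
    rw [← Finset.mul_prod_erase univ _ (mem_univ j), if_pos rfl]
    congr 1
    rw [Finset.prod_congr rfl (g := fun _ => n)]
    · rw [prod_const, card_erase_of_mem (mem_univ j), card_univ, Fintype.card_fin]
    · intro i hi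
      rw [if_neg (mem_erase.mp hi).1, card_univ, Fintype.card_fin]
  rw [h1, card_product, Fintype.card_piFinset, h2, card_univ, Fintype.card_fun, Fintype.card_fin,
    Fintype.card_fin]
  have h3 : 2 * k - 1 = k + (k - 1) := by omega
  rw [h3, pow_add]
  apply le_of_eq
  ring

/-- [S14] `copyCount_eq_rcount`, `rcount` = card of the filter of `RCopy` (= `IsCopy` definitionally).  The copies are contained in `kept ∪ ⋃ j, {p | p.2 j ∈ D}` (`Finset.card_le_card`, `card_union_le`, `Finset.card_biUnion_le`, `card_col_in_le`, `sum_const`, `card_univ`, `Fintype.card_fin`). -/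
theorem copyCount_le_kept (H : Fin k → Fin k → Bool) (M : Fin n → Fin n → Bool) (D : Finset (Fin n))
    (hk : 0 < k) : copyCount H M ≤ (kept H M D).card + k * (D.card * n ^ (2 * k - 1)) := by
  rw [copyCount_eq_rcount]
  unfold rcount
  have hsub : (univ.filter (fun p : (Fin k → Fin n) × (Fin k → Fin n) => RCopy H M p.1 p.2))
      ⊆ kept H M D ∪ (univ : Finset (Fin k)).biUnion
        (fun j => univ.filter (fun p : (Fin k → Fin n) × (Fin k → Fin n) => p.2 j ∈ D)) := by
    intro p hp
    have hp' : RCopy H M p.1 p.2 := (mem_filter.mp hp).2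
    by_cases h : ∀ j, p.2 j ∉ D
    · apply mem_union_left
      unfold kept
      exact mem_filter.mpr ⟨mem_univ _, hp', h⟩
    · push_neg at h
      obtain ⟨j, hj⟩ := h
      apply mem_union_right
      exact mem_biUnion.mpr ⟨j, mem_univ _, mem_filter.mpr ⟨mem_univ _, hj⟩⟩
  refine (card_le_card hsub).trans ((card_union_le _ _).trans ?_)
  apply Nat.add_le_add_left
  refine card_biUnion_le.trans ?_
  calc ∑ j : Fin k, (univ.filter (fun p : (Fin k → Fin n) × (Fin k → Fin n) => p.2 j ∈ D)).card
      ≤ ∑ _j : Fin k, D.card * n ^ (2 * k - 1) := sum_le_sum (fun j _ => card_col_in_le D hk j)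
    _ = k * (D.card * n ^ (2 * k - 1)) := by
        rw [sum_const, card_univ, Fintype.card_fin, smul_eq_mul]

/-- the rows in the zones that realise a copy of `B` -/
noncomputable def lift (pick : ℕ → ℕ → Fin n → Fin n) (R z2 : ℕ) (r : Fin k → Fin n) (u : Fin k → Fin z2) :
    Fin k → Fin n :=
  fun i => pick (blk n R (r i).1) (i.1 * z2 + (u i).1) (r i)

/-- [S15] the index `q = i z2 + u i` satisfies `(q + 1) g ≤ k z2 g`: `q + 1 ≤ (i + 1) z2 ≤ k z2` (`Nat.mul_le_mul_right`). -/
theorem idx_ok (z2 g : ℕ) (i : Fin k) (u : Fin z2) : (i.1 * z2 + u.1 + 1) * g ≤ k * z2 * g := by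
  apply Nat.mul_le_mul_right
  have h1 : i.1 + 1 ≤ k := i.2
  have h2 : u.1 + 1 ≤ z2 := u.2
  calc i.1 * z2 + u.1 + 1 ≤ i.1 * z2 + z2 := by omega
    _ = (i.1 + 1) * z2 := by ring
    _ ≤ k * z2 := Nat.mul_le_mul_right _ h1

/-- [S16] `lift` is strictly increasing.  For `i < i'`: `l = blk (r i) ≤ l' = blk (r i')` (`blk_mono`).  With `hpick` (`blk_spec`, `idx_ok`): `lift i < l R + o + (q + 1) g`, `l' R + o + q' g ≤ lift i'`.  If `l = l'`: `q + 1 ≤ q'` (since `u i < z2`, `i + 1 ≤ i'`), so `(q+1) g ≤ q' g`.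
If `l < l'`: `l R + o + (q+1) g ≤ l R + o + z ≤ (l + 1) R ≤ l' R`. -/
theorem lift_strictMono (τ : Fin n → ℕ) (R o z2 g : ℕ) (hR : 0 < R) (hRn : R ≤ n)
    (hoz : o + k * z2 * g ≤ R) (pick : ℕ → ℕ → Fin n → Fin n)
    (hpick : IsPick n R o (k * z2 * g) g τ pick) (r : Fin k → Fin n) (hr : StrictMono r)
    (u : Fin k → Fin z2) : StrictMono (lift pick R z2 r u) := by
  intro i i' hii
  have hlt : (r i).1 < (r i').1 := hr hii
  have hb := blk_mono (n := n) R hlt.le
  obtain ⟨a1, a2, a3⟩ := blk_spec (n := n) R (r i).1 hR hRn (r i).2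
  obtain ⟨b1, b2, b3⟩ := blk_spec (n := n) R (r i').1 hR hRn (r i').2
  obtain ⟨-, p1, -⟩ := hpick (blk n R (r i).1) (i.1 * z2 + (u i).1) (r i) a1 (idx_ok z2 g i (u i))
  obtain ⟨p2, -, -⟩ := hpick (blk n R (r i').1) (i'.1 * z2 + (u i').1) (r i') b1 (idx_ok z2 g i' (u i'))
  have q1 := idx_ok z2 g i (u i)
  show (pick (blk n R (r i).1) (i.1 * z2 + (u i).1) (r i)).1 <
    (pick (blk n R (r i').1) (i'.1 * z2 + (u i').1) (r i')).1
  have hqq : i.1 * z2 + (u i).1 + 1 ≤ i'.1 * z2 + (u i').1 := by
    have hi : i.1 + 1 ≤ i'.1 := hii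
    have h4 : (i.1 + 1) * z2 ≤ i'.1 * z2 := Nat.mul_le_mul_right z2 hi
    have h5 : (i.1 + 1) * z2 = i.1 * z2 + z2 := by ring
    have := (u i).2
    omega
  generalize (pick (blk n R (r i).1) (i.1 * z2 + (u i).1) (r i)).1 = X at *
  generalize (pick (blk n R (r i').1) (i'.1 * z2 + (u i').1) (r i')).1 = Y at *
  generalize blk n R (r i).1 = l at *
  generalize blk n R (r i').1 = l' at *
  generalize i.1 * z2 + (u i).1 = q at *
  generalize i'.1 * z2 + (u i').1 = q' at *
  generalize k * z2 * g = Z at *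
  have e1 : (q + 1) * g = q * g + g := by ring
  rcases Nat.lt_or_ge l l' with h | h
  · have h2 : (l + 1) * R ≤ l' * R := Nat.mul_le_mul_right R h
    have h3 : (l + 1) * R = l * R + R := by ring
    omega
  · have hll : l = l' := le_antisymm hb h
    have h6 : (q + 1) * g ≤ q' * g := Nat.mul_le_mul_right g hqq
    subst hll
    omega

/-- [S17] the lifted rows form a copy of `H` in `A`.  `lift_strictMono`; entries: `c j ∉ Del`, so `H i j = Bm .. (r i) (c j) = A (pick l 0 (r i)) (c j)` (`if_neg`) `= A (pick l q (r i)) (c j)` by `zone_stable` (both picked rows lie in the zone of `l = blk (r i)`: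
`[l R + o + q g, .. + g) ⊆ [l R + o, l R + o + z)` by `idx_ok`; same colour `τ (r i)`).  Needs `0 < z2` only through `u` (if `z2 = 0` there is no `u i`); `g ≤ z`: `(0 + 1) * g ≤ k z2 g` from `idx_ok` applied to `⟨0, _⟩`-type argument or from `1 ≤ k z2`. -/
theorem lift_isCopy (H : Fin k → Fin k → Bool) (τ : Fin n → ℕ) (A : Fin n → Fin n → Bool)
    (R o z2 g : ℕ) (hR : 0 < R) (hRn : R ≤ n) (hoz : o + k * z2 * g ≤ R)
    (pick : ℕ → ℕ → Fin n → Fin n) (hpick : IsPick n R o (k * z2 * g) g τ pick)
    (r c : Fin k → Fin n)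
    (h : IsCopy H (Bm A (Del τ A R o (k * z2 * g)) pick R) r c)
    (hc : ∀ j, c j ∉ Del τ A R o (k * z2 * g)) (u : Fin k → Fin z2) :
    IsCopy H A (lift pick R z2 r u) c := by
  obtain ⟨hr, hcm, hent⟩ := h
  refine ⟨lift_strictMono τ R o z2 g hR hRn hoz pick hpick r hr u, hcm, ?_⟩
  intro i j
  have hB := hent i j
  unfold Bm at hB
  rw [if_neg (hc j)] at hB
  rw [← hB]
  unfold lift
  have hbl := blk_spec (n := n) R (r i).1 hR hRn (r i).2
  have hq := idx_ok (k := k) z2 g i (u i)
  have hp1 := hpick (blk n R (r i).1) (i.1 * z2 + (u i).1) (r i) hbl.1 hq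
  have hq0 : (0 + 1) * g ≤ k * z2 * g :=
    le_trans (Nat.mul_le_mul_right _ (by omega)) hq
  have hp0 := hpick (blk n R (r i).1) 0 (r i) hbl.1 hq0
  have e1 : (i.1 * z2 + (u i).1 + 1) * g = (i.1 * z2 + (u i).1) * g + g := by ring
  have e0 : (0 + 1) * g = g := by ring
  have e00 : 0 * g = 0 := by ring
  rw [e1] at hq
  rw [e0] at hq0
  rw [e00] at hp0
  refine zone_stable τ A R o (k * z2 * g) (blk n R (r i).1) hoz _ _ (c j) ⟨?_, ?_⟩ ⟨?_, ?_⟩ ?_ (hc j)
  · exact le_trans (Nat.le_add_right _ _) hp1.1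
  · have := hp1.2.1
    generalize (i.1 * z2 + (u i).1) * g = Q at *
    generalize k * z2 * g = Z at *
    generalize blk n R (r i).1 * R = L at *
    omega
  · have := hp0.1
    generalize blk n R (r i).1 * R = L at *
    omega
  · have := hp0.2.1
    generalize k * z2 * g = Z at *
    generalize blk n R (r i).1 * R = L at *
    omega
  · rw [hp1.2.2, hp0.2.2]

/-- [S18] `lift` determines the block, and `u`.  If `lift pick R z2 r u i = lift pick R z2 r' u' i` then `blk (r i) = blk (r' i)` (by `blk_eq`, both equal `blk` of the common row: the picked row lies in `[l R, (l+1) R)`) and `u i = u' i`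
(the row lies in `[l R + o + q g, .. + g)` and in `[l R + o + q' g, .. + g)`, so `q = q'`: otherwise `q + 1 ≤ q'` gives `(q+1) g ≤ q' g`, contradiction; then `i z2 + u i = i z2 + u' i`). -/
theorem lift_inj (τ : Fin n → ℕ) (R o z2 g : ℕ) (hR : 0 < R) (hRn : R ≤ n)
    (hoz : o + k * z2 * g ≤ R) (pick : ℕ → ℕ → Fin n → Fin n)
    (hpick : IsPick n R o (k * z2 * g) g τ pick) (r r' : Fin k → Fin n) (u u' : Fin k → Fin z2) (i : Fin k)
    (h : lift pick R z2 r u i = lift pick R z2 r' u' i) :
    blk n R (r i).1 = blk n R (r' i).1 ∧ u i = u' i := by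
  unfold lift at h
  have hl := (blk_spec (n := n) R (r i).1 hR hRn (r i).2).1
  have hl' := (blk_spec (n := n) R (r' i).1 hR hRn (r' i).2).1
  have hq := idx_ok z2 g i (u i)
  have hq' := idx_ok z2 g i (u' i)
  obtain ⟨P1, P2, _⟩ := hpick _ _ (r i) hl hq
  obtain ⟨Q1, Q2, _⟩ := hpick _ _ (r' i) hl' hq'
  rw [← h] at Q1 Q2
  set l := blk n R (r i).1 with hldef
  set l' := blk n R (r' i).1 with hldef'
  set w := (pick l (i.1 * z2 + (u i).1) (r i)).1 with hw
  have e1 : (i.1 * z2 + (u i).1 + 1) * g = (i.1 * z2 + (u i).1) * g + g := by ring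
  have e2 : (i.1 * z2 + (u' i).1 + 1) * g = (i.1 * z2 + (u' i).1) * g + g := by ring
  have e3 : (l + 1) * R = l * R + R := by ring
  have e4 : (l' + 1) * R = l' * R + R := by ring
  have b1 : blk n R w = l := blk_eq R l w hR hl (by omega) (by omega)
  have b2 : blk n R w = l' := blk_eq R l' w hR hl' (by omega) (by omega)
  have hll : l = l' := b1.symm.trans b2
  refine ⟨hll, ?_⟩
  rw [← hll] at Q1 Q2
  apply Fin.ext
  rcases lt_trichotomy (u i).1 (u' i).1 with hlt | heq | hlt
  · exfalso
    have : (i.1 * z2 + (u i).1 + 1) * g ≤ (i.1 * z2 + (u' i).1) * g :=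
      Nat.mul_le_mul_right g (by omega)
    omega
  · exact heq
  · exfalso
    have : (i.1 * z2 + (u' i).1 + 1) * g ≤ (i.1 * z2 + (u i).1) * g :=
      Nat.mul_le_mul_right g (by omega)
    omega

/-- [S19] TRANSFER.  Injection of `kept ×ˢ univ` (`univ : Finset (Fin k → Fin z2)`, card `z2^k`: `Fintype.card_fun`/`Fintype.card_pi`, `Fintype.card_fin`) into `copies of A ×ˢ univ` (`univ : Finset (Fin k → Fin (2 R))`):
`((r, c), u) ↦ ((lift pick R z2 r u, c), fun i => ⟨(r i).1 - blk (r i) * R, _⟩)` (`blk_spec`).  Into: `lift_isCopy`.  Injective: `lift_inj` gives equal blocks and `u = u'`; equal relative positions then give `r i = r' i` (`blk_spec`: `blk * R ≤ r i`; `Fin.ext`, `omega`).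
`copyCount_eq_rcount`, `rcount`; `Finset.card_le_card_of_injOn`, `card_product`. -/
theorem transfer (H : Fin k → Fin k → Bool) (τ : Fin n → ℕ) (A : Fin n → Fin n → Bool)
    (R o z2 g : ℕ) (hR : 0 < R) (hRn : R ≤ n) (hoz : o + k * z2 * g ≤ R)
    (pick : ℕ → ℕ → Fin n → Fin n) (hpick : IsPick n R o (k * z2 * g) g τ pick) :
    (kept H (Bm A (Del τ A R o (k * z2 * g)) pick R) (Del τ A R o (k * z2 * g))).card * z2 ^ k ≤
      copyCount H A * (2 * R) ^ k := by
  rw [copyCount_eq_rcount]
  unfold rcount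
  have hc1 : (univ : Finset (Fin k → Fin z2)).card = z2 ^ k := by
    rw [Finset.card_univ, Fintype.card_fun, Fintype.card_fin, Fintype.card_fin]
  have hc2 : (univ : Finset (Fin k → Fin (2 * R))).card = (2 * R) ^ k := by
    rw [Finset.card_univ, Fintype.card_fun, Fintype.card_fin, Fintype.card_fin]
  rw [← hc1, ← hc2, ← Finset.card_product, ← Finset.card_product]
  have hb : ∀ x : Fin n, x.1 - blk n R x.1 * R < 2 * R := by
    intro x
    have h := blk_spec (n := n) R x.1 hR hRn x.2
    omega
  apply Finset.card_le_card_of_injOn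
    (fun p : ((Fin k → Fin n) × (Fin k → Fin n)) × (Fin k → Fin z2) =>
      ((lift pick R z2 p.1.1 p.2, p.1.2),
        fun i => (⟨(p.1.1 i).1 - blk n R (p.1.1 i).1 * R, hb (p.1.1 i)⟩ : Fin (2 * R))))
  · rintro ⟨⟨r, c⟩, u⟩ hp
    have hp1 := Finset.mem_coe.1 hp
    rw [Finset.mem_product] at hp1
    have hp2 := hp1.1
    unfold kept at hp2
    rw [Finset.mem_filter] at hp2
    have h3 := lift_isCopy H τ A R o z2 g hR hRn hoz pick hpick r c hp2.2.1 hp2.2.2 u
    apply Finset.mem_coe.2
    rw [Finset.mem_product, Finset.mem_filter]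
    exact ⟨⟨Finset.mem_univ _, h3⟩, Finset.mem_univ _⟩
  · rintro ⟨⟨r, c⟩, u⟩ _ ⟨⟨r', c'⟩, u'⟩ _ heq
    simp only [Prod.mk.injEq] at heq
    obtain ⟨⟨h1, h2⟩, h3⟩ := heq
    have hi : ∀ i, r i = r' i ∧ u i = u' i := by
      intro i
      have h4 := lift_inj τ R o z2 g hR hRn hoz pick hpick r r' u u' i (congrFun h1 i)
      refine ⟨?_, h4.2⟩
      have h5 := congrFun h3 i
      simp only [Fin.mk.injEq] at h5
      have h6 := blk_spec (n := n) R (r i).1 hR hRn (r i).2
      have h7 := blk_spec (n := n) R (r' i).1 hR hRn (r' i).2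
      apply Fin.ext
      rw [h4.1] at h5 h6
      omega
    have hr : r = r' := funext fun i => (hi i).1
    have hu : u = u' := funext fun i => (hi i).2
    rw [hr, hu, h2]

end Vale.Agent.P037.Syn37
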