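import Mathlib
import Vale.Agent.P037.Defs
import Vale.Agent.P037.BlowCount
import Vale.Agent.P037.FewRows
import Vale.Agent.P037.TV
import Vale.Agent.P037.TVAll
import Vale.Agent.P037.TVRobust
import Vale.Agent.P037.Syn37.Defs
import Vale.Agent.P037.Syn37.Core

/-! # P037 Syn37, part 2: parameters and assembly.  Everything is a power of `X = 16 T V g k`. -/

namespace Vale.Agent.P037.Syn37

open Vale.Agent.P037

open Finset

variable {k n : ℕ}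

/-- [P1] all are `≤ 16 * T * V * g * k` because the missing factors are `≥ 1` (`Nat.le_mul_of_pos_right`, or `nlinarith`/`calc` with `Nat.mul_le_mul`). Hint: set `a = T*V*g*k ≥ 1` and show e.g. `T*V ≤ a` by `Nat.le_mul_of_pos_right`. -/
theorem X_facts (T V g k : ℕ) (hT : 1 ≤ T) (hV : 1 ≤ V) (hg : 1 ≤ g) (hk : 1 ≤ k) :
    8 * T * V ≤ 16 * T * V * g * k ∧ 2 * g ≤ 16 * T * V * g * k ∧ 4 * T * k ≤ 16 * T * V * g * k ∧
    2 * V * k * g ≤ 16 * T * V * g * k ∧ 2 * k * g ≤ 16 * T * V * g * k ∧ 2 * k ≤ 16 * T * V * g * k ∧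
    4 * T ≤ 16 * T * V * g * k ∧ 16 ≤ 16 * T * V * g * k := by
  have aux : ∀ c M N : ℕ, c ≤ 16 → 1 ≤ N → c * M ≤ 16 * M * N := by
    intro c M N hc hN
    calc c * M ≤ 16 * M := Nat.mul_le_mul_right _ hc
      _ ≤ 16 * M * N := Nat.le_mul_of_pos_right _ hN
  refine ⟨?_, ?_, ?_, ?_, ?_, ?_, ?_, ?_⟩
  · have := aux 8 (T * V) (g * k) (by norm_num) (Nat.mul_pos hg hk)
    calc 8 * T * V = 8 * (T * V) := by ring
      _ ≤ _ := this
      _ = _ := by ring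
  · have := aux 2 g (T * V * k) (by norm_num) (Nat.mul_pos (Nat.mul_pos hT hV) hk)
    calc 2 * g ≤ _ := this
      _ = _ := by ring
  · have := aux 4 (T * k) (V * g) (by norm_num) (Nat.mul_pos hV hg)
    calc 4 * T * k = 4 * (T * k) := by ring
      _ ≤ _ := this
      _ = _ := by ring
  · have := aux 2 (V * k * g) T (by norm_num) hT
    calc 2 * V * k * g = 2 * (V * k * g) := by ring
      _ ≤ _ := this
      _ = _ := by ring
  · have := aux 2 (k * g) (T * V) (by norm_num) (Nat.mul_pos hT hV)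
    calc 2 * k * g = 2 * (k * g) := by ring
      _ ≤ _ := this
      _ = _ := by ring
  · have := aux 2 k (T * V * g) (by norm_num) (Nat.mul_pos (Nat.mul_pos hT hV) hg)
    calc 2 * k ≤ _ := this
      _ = _ := by ring
  · have := aux 4 T (V * g * k) (by norm_num) (Nat.mul_pos (Nat.mul_pos hV hg) hk)
    calc 4 * T ≤ _ := this
      _ = _ := by ring
  · have := aux 16 1 (T * V * g * k) (by norm_num) (Nat.mul_pos (Nat.mul_pos (Nat.mul_pos hT hV) hg) hk)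
    calc 16 = 16 * 1 := by norm_num
      _ ≤ _ := this
      _ = _ := by ring

/-- [P2] `(X^2)^k = X^(2k)` (`← pow_mul`), `4 T k X^(2k) ≤ X^(2k+1)`, `1 ≤ X^(2k+1)`, `2 X^(2k+1) ≤ X^(2k+2)` (`pow_succ`). -/
theorem D_le_pow (T k X : ℕ) (h1 : 4 * T * k ≤ X) (h2 : 2 ≤ X) :
    4 * T * k * (X ^ 2) ^ k + 1 ≤ X ^ (2 * k + 2) := by
  have e : (X ^ 2) ^ k = X ^ (2 * k) := by rw [← pow_mul]
  rw [e]
  have hp : 1 ≤ X ^ (2 * k) := Nat.one_le_pow _ _ (by omega)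
  have a1 : 4 * T * k * X ^ (2 * k) ≤ X * X ^ (2 * k) := Nat.mul_le_mul_right _ h1
  have a2 : X ^ (2 * k + 2) = X * (X * X ^ (2 * k)) := by ring
  rw [a2]
  have a3 : 1 ≤ X * X ^ (2 * k) := by nlinarith
  have a4 : 2 * (X * X ^ (2 * k)) ≤ X * (X * X ^ (2 * k)) := Nat.mul_le_mul_right _ h2
  omega

/-- [P3] `2 X^(2k+2) ≤ X^(2k+3)`, raise to `2k` (`Nat.pow_le_pow_left`, `← pow_mul`), multiply by `2k ≤ X` (`pow_succ`). -/
theorem E_le_pow (k X : ℕ) (h1 : 2 * k ≤ X) (h2 : 2 ≤ X) :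
    2 * k * (2 * X ^ (2 * k + 2)) ^ (2 * k) ≤ X ^ ((2 * k + 3) * (2 * k) + 1) := by
  have a1 : 2 * X ^ (2 * k + 2) ≤ X ^ (2 * k + 3) := by
    rw [pow_succ X (2 * k + 2), mul_comm]
    exact Nat.mul_le_mul_left _ h2
  have a2 : (2 * X ^ (2 * k + 2)) ^ (2 * k) ≤ X ^ ((2 * k + 3) * (2 * k)) := by
    rw [pow_mul X (2 * k + 3) (2 * k)]
    exact Nat.pow_le_pow_left a1 _
  calc 2 * k * (2 * X ^ (2 * k + 2)) ^ (2 * k) ≤ X * X ^ ((2 * k + 3) * (2 * k)) :=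
        Nat.mul_le_mul h1 a2
    _ = X ^ ((2 * k + 3) * (2 * k) + 1) := by rw [pow_succ, mul_comm]

/-- [P4] `Nat.div_pos`, `Nat.div_le_self`, `Nat.mul_div_le`, and `n < X (n / X + 1) ≤ 2 X (n / X)` (`Nat.lt_mul_div_succ`), so `n / (n / X) ≤ 2 X` (`Nat.div_le_of_le_mul`). -/
theorem R_facts (n X : ℕ) (hX : 0 < X) (hn : X ≤ n) :
    0 < n / X ∧ n / X ≤ n ∧ X * (n / X) ≤ n ∧ n / (n / X) ≤ 2 * X := by
  have h1 : 0 < n / X := Nat.div_pos hn hX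
  refine ⟨h1, Nat.div_le_self _ _, Nat.mul_div_le _ _, ?_⟩
  have h2 : n < X * (n / X + 1) := Nat.lt_mul_div_succ n hX
  apply Nat.div_le_of_le_mul
  have h3 : X * (n / X + 1) = X * (n / X) + X := by ring
  have h4 : X ≤ X * (n / X) := Nat.le_mul_of_pos_right _ h1
  have h5 : n / X * (2 * X) = 2 * (X * (n / X)) := by ring
  omega

/-- [P5] same as P4. -/
theorem z_facts (R Y : ℕ) (hY : 0 < Y) (hR : Y ≤ R) :
    0 < R / Y ∧ Y * (R / Y) ≤ R ∧ R ≤ 2 * Y * (R / Y) := by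
  have h1 : 0 < R / Y := Nat.div_pos hR hY
  have h2 : Y * (R / Y) ≤ R := Nat.mul_div_le R Y
  have e1 := Nat.div_add_mod R Y
  have e2 := Nat.mod_lt R hY
  have h3 : Y * 1 ≤ Y * (R / Y) := Nat.mul_le_mul_left Y h1
  have e3 : 2 * Y * (R / Y) = Y * (R / Y) + Y * (R / Y) := by ring
  refine ⟨h1, h2, ?_⟩
  rw [e3]
  omega

/-- [P6] few deleted columns.  `R ≤ 2 (R - z + 1)` (from `2 z ≤ R`), so `R * ev ≤ 2 z cv ≤ 2 z V n`; `W * ev * R ≤ W * (2 z V n) = (2 V W z) n ≤ R n`; cancel `R > 0` (`Nat.le_of_mul_le_mul_right`). -/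
theorem W_ev_le (R z ev cv V W n : ℕ) (hR : 0 < R) (h1 : (R - z + 1) * ev ≤ z * cv) (h2 : cv ≤ V * n)
    (h3 : 2 * z ≤ R) (h4 : 2 * V * W * z ≤ R) : W * ev ≤ n := by
  have a1 : R ≤ 2 * (R - z + 1) := by omega
  have a2 : R * ev ≤ 2 * (z * (V * n)) := by
    calc R * ev ≤ 2 * (R - z + 1) * ev := Nat.mul_le_mul_right _ a1
      _ = 2 * ((R - z + 1) * ev) := by ring
      _ ≤ 2 * (z * cv) := Nat.mul_le_mul_left _ h1
      _ ≤ 2 * (z * (V * n)) := Nat.mul_le_mul_left _ (Nat.mul_le_mul_left _ h2)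
  apply Nat.le_of_mul_le_mul_right _ hR
  calc W * ev * R = W * (R * ev) := by ring
    _ ≤ W * (2 * (z * (V * n))) := Nat.mul_le_mul_left _ a2
    _ = (2 * V * W * z) * n := by ring
    _ ≤ R * n := Nat.mul_le_mul_right _ h4
    _ = n * R := by ring

/-- [P7] `2 T diff ≤ 2 T (d n + 2 R V n) = (4 T d) n / 2 + ...`: `2 * (2 * T * diff) ≤ (4 T d) n + (8 T V R) n ≤ 2 n^2`. -/
theorem close_arith (T V R d cv df n : ℕ) (h0 : df ≤ d * n + 2 * R * cv) (h1 : cv ≤ V * n)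
    (h2 : 4 * T * d ≤ n) (h3 : 8 * T * V * R ≤ n) : 2 * T * df ≤ n ^ 2 := by
  have a0 : df ≤ d * n + 2 * R * (V * n) :=
    h0.trans (Nat.add_le_add_left (Nat.mul_le_mul_left _ h1) _)
  have a1 : 2 * T * df ≤ 2 * T * (d * n + 2 * R * (V * n)) := Nat.mul_le_mul_left _ a0
  have a2 : (4 * T * d) * n ≤ n * n := Nat.mul_le_mul_right n h2
  have a3 : (8 * T * V * R) * n ≤ n * n := Nat.mul_le_mul_right n h3
  have e : 2 * (2 * T * (d * n + 2 * R * (V * n))) = (4 * T * d) * n + (8 * T * V * R) * n := by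
    ring
  rw [pow_two]
  omega

/-- [P8] final chain.  `n^(2k) = n * n^(2k-1)` (`k ≥ 1`).  `2 * F * (k * (d * n^(2k-1))) = (2 k F d) n^(2k-1) ≤ n^(2k)`.  From `h1`, `h2`: `2 n^(2k) ≤ 2 F kp + n^(2k)`, so `n^(2k) ≤ 2 F kp`.
`kp * z2^k ≤ NA (2R)^k ≤ NA (4 Y z2)^k = NA (4Y)^k z2^k` (`Nat.pow_le_pow_left`, `mul_pow`), cancel `z2^k > 0`: `kp ≤ NA (4Y)^k`. -/
theorem chain_arith (k n F cB kp d z2 R Y NA : ℕ) (hk : 1 ≤ k) (h1 : n ^ (2 * k) ≤ F * cB)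
    (h2 : cB ≤ kp + k * (d * n ^ (2 * k - 1))) (h3 : 2 * k * F * d ≤ n)
    (h4 : kp * z2 ^ k ≤ NA * (2 * R) ^ k) (h5 : R ≤ 2 * Y * z2) (h6 : 0 < z2) :
    n ^ (2 * k) ≤ 2 * F * (4 * Y) ^ k * NA := by
  have e : n ^ (2 * k) = n * n ^ (2 * k - 1) := by
    rw [← pow_succ']
    congr 1
    omega
  set P := n ^ (2 * k - 1) with hP
  -- kp ≤ NA (4Y)^k
  have hkp : kp ≤ NA * (4 * Y) ^ k := by
    have h7 : (2 * R) ^ k ≤ (4 * Y) ^ k * z2 ^ k := by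
      rw [← mul_pow]
      apply Nat.pow_le_pow_left
      nlinarith
    have h8 : kp * z2 ^ k ≤ NA * (4 * Y) ^ k * z2 ^ k := by
      calc kp * z2 ^ k ≤ NA * (2 * R) ^ k := h4
        _ ≤ NA * ((4 * Y) ^ k * z2 ^ k) := Nat.mul_le_mul_left _ h7
        _ = NA * (4 * Y) ^ k * z2 ^ k := by ring
    exact Nat.le_of_mul_le_mul_right h8 (pow_pos h6 k)
  have h9 : F * cB ≤ F * kp + F * (k * (d * P)) := by
    calc F * cB ≤ F * (kp + k * (d * P)) := Nat.mul_le_mul_left _ h2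
      _ = _ := by ring
  have h10 : 2 * (F * (k * (d * P))) ≤ n * P := by
    calc 2 * (F * (k * (d * P))) = (2 * k * F * d) * P := by ring
      _ ≤ n * P := Nat.mul_le_mul_right _ h3
  have h11 : n * P ≤ 2 * (F * kp) := by
    rw [e] at h1
    omega
  rw [e]
  calc n * P ≤ 2 * (F * kp) := h11
    _ ≤ 2 * (F * (NA * (4 * Y) ^ k)) := by
        apply Nat.mul_le_mul_left
        exact Nat.mul_le_mul_left _ hkp
    _ = 2 * F * (4 * Y) ^ k * NA := by ring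

/-- [P9] `n ≤ 2 D1 (n / D)` when `D ≤ D1 ≤ n`: `n / D1 ≤ n / D` (`Nat.div_le_div_left`), `n < D1 (n / D1 + 1) ≤ 2 D1 (n / D1)`; then `Nat.pow_le_pow_left`, `mul_pow`, `Nat.mul_le_mul_left`. -/
theorem pow_le_of_many (k n D D1 cB : ℕ) (hD : 0 < D) (hDD : D ≤ D1) (hn : D1 ≤ n)
    (h : (n / D) ^ (2 * k) ≤ cB) : n ^ (2 * k) ≤ (2 * D1) ^ (2 * k) * cB := by
  have hD1 : 0 < D1 := lt_of_lt_of_le hD hDD
  have h1 : n / D1 ≤ n / D := Nat.div_le_div_left hDD hD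
  have h2 : 0 < n / D1 := Nat.div_pos hn hD1
  have h3 : n < D1 * (n / D1 + 1) := Nat.lt_mul_div_succ n hD1
  have h4 : n ≤ 2 * D1 * (n / D) := by
    have h5 : D1 * (n / D1 + 1) ≤ D1 * (2 * (n / D)) := Nat.mul_le_mul_left _ (by omega)
    calc n ≤ D1 * (n / D1 + 1) := h3.le
      _ ≤ D1 * (2 * (n / D)) := h5
      _ = 2 * D1 * (n / D) := by ring
  calc n ^ (2 * k) ≤ (2 * D1 * (n / D)) ^ (2 * k) := Nat.pow_le_pow_left h4 _
    _ = (2 * D1) ^ (2 * k) * (n / D) ^ (2 * k) := mul_pow _ _ _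
    _ ≤ (2 * D1) ^ (2 * k) * cB := Nat.mul_le_mul_left _ h

/-- [P10] LARGE `n`.  `X = 16 T V g k`, `e = (2k+3)(2k)+1`, `W = X^e`, `Y = X^(e+1)`, `D1 = X^(2k+2)`, `F = (2 D1)^(2k)`, `R = n / X`, `z2 = R / Y`, `z = k * z2 * g`.
`X_facts`; `n ≥ X^(e+2) ≥ X, D1` (`Nat.pow_le_pow_right`, `2k+2 ≤ e+2`); `R ≥ Y` (`Nat.le_div_iff_mul_le`, `pow_succ`); `R_facts`, `z_facts`.  `z ≤ R`, `2 z ≤ R`, `2 V W z ≤ R`: `2 V W (k z2 g) = (2 V k g) W z2 ≤ X W z2 = Y z2 ≤ R`, `2 k g z2 ≤ X z2 ≤ Y z2`.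
`exists_offset τ A R z` gives `o`; `exists_pick` gives `pick`; `B = Bm A (Del ..) pick R`, `d = (Del ..).card ≤ ev` (`card_Del_le`); `W_ev_le` gives `W d ≤ n`; hence `4 T d ≤ n` (`4 T ≤ X ≤ W`) and `2 k F d ≤ n` (`E_le_pow`).
`g ≤ z` since `1 ≤ k z2`.  `diffCount_Bm_le`, `close_arith`, `TVB.far_of_close` give farness of `B`; `card_image_Bm_le` and `n / R * g ≤ 2 X g ≤ X^2`; `TVA.many_in_collapse H hk B T (X^2)`; `D_le_pow`, `pow_le_of_many`; `copyCount_le_kept`; `transfer`; `chain_arith`. -/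
theorem syn_large (H : Fin k → Fin k → Bool) (hk : 0 < k) (T V g n : ℕ) (τ : Fin n → ℕ)
    (A : Fin n → Fin n → Bool) (hT : 1 ≤ T) (hV : 1 ≤ V) (hg : 1 ≤ g) (hsyn : Syndetic τ g)
    (hvar : classVar τ A ≤ V * n)
    (hfar : ∀ B : Fin n → Fin n → Bool, HFree H B → n ^ 2 ≤ T * diffCount A B)
    (hn : (16 * T * V * g * k) ^ ((2 * k + 3) * (2 * k) + 1 + 2) ≤ n) :
    n ^ (2 * k) ≤ 2 * (2 * (16 * T * V * g * k) ^ (2 * k + 2)) ^ (2 * k) *
      (4 * (16 * T * V * g * k) ^ ((2 * k + 3) * (2 * k) + 1 + 1)) ^ k * copyCount H A := by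
  obtain ⟨f1, f2, f3, f4, f5, f6, f7, f8⟩ := X_facts T V g k hT hV hg hk
  obtain ⟨X, hXd⟩ : ∃ X : ℕ, X = 16 * T * V * g * k := ⟨_, rfl⟩
  rw [← hXd] at hn f1 f2 f3 f4 f5 f6 f7 f8 ⊢
  have hE := E_le_pow k X f6 (by omega)
  have he1 : 2 * k ≤ (2 * k + 3) * (2 * k) := Nat.le_mul_of_pos_left _ (by omega)
  obtain ⟨e, he⟩ : ∃ e : ℕ, e = (2 * k + 3) * (2 * k) + 1 := ⟨_, rfl⟩
  rw [← he] at hn hE ⊢
  have hXpos : 0 < X := by omega
  have hXn : X ≤ n := by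
    calc X = X ^ 1 := (pow_one X).symm
      _ ≤ X ^ (e + 2) := Nat.pow_le_pow_right hXpos (by omega)
      _ ≤ n := hn
  have hD1n : X ^ (2 * k + 2) ≤ n :=
    (Nat.pow_le_pow_right hXpos (by omega)).trans hn
  have hn0 : 0 < n := by omega
  obtain ⟨hR0, hRn, hXR, hnR⟩ := R_facts n X hXpos hXn
  obtain ⟨R, hRd⟩ : ∃ R : ℕ, R = n / X := ⟨_, rfl⟩
  rw [← hRd] at hR0 hRn hXR hnR
  have hYpos : 0 < X ^ (e + 1) := Nat.pow_pos hXpos
  have hYR : X ^ (e + 1) ≤ R := by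
    rw [hRd, Nat.le_div_iff_mul_le hXpos, ← pow_succ]
    exact hn
  obtain ⟨hz0, hYz, hRz⟩ := z_facts R (X ^ (e + 1)) hYpos hYR
  obtain ⟨z2, hz2d⟩ : ∃ z2 : ℕ, z2 = R / X ^ (e + 1) := ⟨_, rfl⟩
  rw [← hz2d] at hz0 hYz hRz
  have hXY : X ≤ X ^ (e + 1) := by
    calc X = X ^ 1 := (pow_one X).symm
      _ ≤ X ^ (e + 1) := Nat.pow_le_pow_right hXpos (by omega)
  have hXW : X ≤ X ^ e := by
    calc X = X ^ 1 := (pow_one X).symm
      _ ≤ X ^ e := Nat.pow_le_pow_right hXpos (by omega)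
  have h2z : 2 * (k * z2 * g) ≤ R := by
    calc 2 * (k * z2 * g) = (2 * k * g) * z2 := by ring
      _ ≤ X ^ (e + 1) * z2 := Nat.mul_le_mul_right _ (f5.trans hXY)
      _ ≤ R := hYz
  have h2VWz : 2 * V * X ^ e * (k * z2 * g) ≤ R := by
    calc 2 * V * X ^ e * (k * z2 * g) = (2 * V * k * g) * (X ^ e * z2) := by ring
      _ ≤ X * (X ^ e * z2) := Nat.mul_le_mul_right _ f4
      _ = X ^ (e + 1) * z2 := by rw [pow_succ]; ring
      _ ≤ R := hYz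
  have hzR : k * z2 * g ≤ R := by omega
  obtain ⟨o, hoz, hoff⟩ := exists_offset τ A R (k * z2 * g) hzR
  obtain ⟨pick, hpick⟩ := exists_pick τ R o (k * z2 * g) g hoz hsyn
  have hdev := card_Del_le τ A R o (k * z2 * g)
  have hWev := W_ev_le R (k * z2 * g) _ _ V (X ^ e) n hR0 hoff hvar h2z h2VWz
  have hWd : X ^ e * (Del τ A R o (k * z2 * g)).card ≤ n :=
    (Nat.mul_le_mul_left _ hdev).trans hWev
  have h4Td : 4 * T * (Del τ A R o (k * z2 * g)).card ≤ n :=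
    (Nat.mul_le_mul_right _ (f7.trans hXW)).trans hWd
  have h2kFd : 2 * k * (2 * X ^ (2 * k + 2)) ^ (2 * k) * (Del τ A R o (k * z2 * g)).card ≤ n :=
    (Nat.mul_le_mul_right _ hE).trans hWd
  have hgz : g ≤ k * z2 * g := Nat.le_mul_of_pos_left _ (Nat.mul_pos hk hz0)
  have hdiff := diffCount_Bm_le τ A R o (k * z2 * g) g hR0 hRn hoz hgz
    (Del τ A R o (k * z2 * g)) pick hpick
  have h8 : 8 * T * V * R ≤ n := (Nat.mul_le_mul_right _ f1).trans hXR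
  have hclose := close_arith T V R _ _ _ n hdiff hvar h4Td h8
  have hfarB := TVB.far_of_close H A _ T hclose hfar
  have himg := card_image_Bm_le τ A R o (k * z2 * g) g hR0 hRn hoz hgz hsyn pick hpick
  have himg2 : (univ.image (Bm A (Del τ A R o (k * z2 * g)) pick R)).card ≤ X ^ 2 := by
    refine himg.trans ?_
    calc n / R * g ≤ 2 * X * g := Nat.mul_le_mul_right _ hnR
      _ = X * (2 * g) := by ring
      _ ≤ X * X := Nat.mul_le_mul_left _ f2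
      _ = X ^ 2 := (sq X).symm
  have hmany := TVA.many_in_collapse H hk _ T (X ^ 2) hn0 himg2 hfarB
  have hD := D_le_pow T k X f3 (by omega)
  have hpow := pow_le_of_many k n _ (X ^ (2 * k + 2)) _ (Nat.succ_pos _) hD hD1n hmany
  have hkept := copyCount_le_kept H (Bm A (Del τ A R o (k * z2 * g)) pick R)
    (Del τ A R o (k * z2 * g)) hk
  have htr := transfer H τ A R o z2 g hR0 hRn hoz pick hpick
  exact chain_arith k n _ _ _ _ z2 R (X ^ (e + 1)) _ hk hpow hkept h2kFd htr hRz hz0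

/-- [P11] with `e = (2k+3)(2k)+1`: `2 (2 X^(2k+2))^(2k) ≤ 2 k (..)^(2k) ≤ X^e` (`E_le_pow`, `k ≥ 1`), `4 X^(e+1) ≤ X^(e+2)` (`4 ≤ X`), so the product is `≤ X^e * X^((e+2) k) ≤ X^((e+2) * (2k))` (`← pow_mul`, `← pow_add`, `Nat.pow_le_pow_right`, `e + (e+2) k ≤ (e+2)(2k)`). -/
theorem const_le (k X : ℕ) (hk : 1 ≤ k) (h1 : 2 * k ≤ X) (h2 : 4 ≤ X) :
    2 * (2 * X ^ (2 * k + 2)) ^ (2 * k) * (4 * X ^ ((2 * k + 3) * (2 * k) + 1 + 1)) ^ k ≤
      X ^ (((2 * k + 3) * (2 * k) + 1 + 2) * (2 * k)) := by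
  set e := (2 * k + 3) * (2 * k) + 1 with he
  have hX : 0 < X := by omega
  have hE := E_le_pow k X h1 (by omega)
  rw [← he] at hE
  have a1 : 2 * (2 * X ^ (2 * k + 2)) ^ (2 * k) ≤ X ^ e := by
    refine le_trans ?_ hE
    apply Nat.mul_le_mul_right
    omega
  have a2 : 4 * X ^ (e + 1) ≤ X ^ (e + 2) := by
    have : X ^ (e + 2) = X * X ^ (e + 1) := by ring
    rw [this]
    exact Nat.mul_le_mul_right _ h2
  have a3 : (4 * X ^ (e + 1)) ^ k ≤ X ^ ((e + 2) * k) := by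
    rw [pow_mul]
    exact Nat.pow_le_pow_left a2 _
  calc 2 * (2 * X ^ (2 * k + 2)) ^ (2 * k) * (4 * X ^ (e + 1)) ^ k
      ≤ X ^ e * X ^ ((e + 2) * k) := Nat.mul_le_mul a1 a3
    _ = X ^ (e + (e + 2) * k) := (pow_add _ _ _).symm
    _ ≤ X ^ ((e + 2) * (2 * k)) := by
        apply Nat.pow_le_pow_right hX
        have : (e + 2) * (2 * k) = (e + 2) * k + (e + 2) * k := by ring
        have h5 : e + 2 ≤ (e + 2) * k := Nat.le_mul_of_pos_right _ hk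
        omega

/-- [P12] FINAL.  `a = ((2k+3)(2k)+1+2) * (2k)`, `K = (16 k)^a`; `K (T V g)^a = X^a` (`← mul_pow`, `16 * k * (T * V * g) = 16 * T * V * g * k` by `ring`).  If `X^(e+2) ≤ n`: `syn_large`, `const_le`, `X_facts`.  Otherwise `n^(2k) ≤ (X^(e+2))^(2k) = X^a` (`← pow_mul`) and `1 ≤ copyCount H A`
(`TVA.one_le_of_far`, if `n > 0`; if `n = 0`, `0^(2k) = 0`). -/
theorem syn_nat (H : Fin k → Fin k → Bool) (hk : 0 < k) :
    ∃ K a : ℕ, ∀ (T V g n : ℕ) (τ : Fin n → ℕ) (A : Fin n → Fin n → Bool), 1 ≤ T → 1 ≤ V → 1 ≤ g →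
      Syndetic τ g → classVar τ A ≤ V * n →
      (∀ B : Fin n → Fin n → Bool, HFree H B → n ^ 2 ≤ T * diffCount A B) →
      n ^ (2 * k) ≤ K * (T * V * g) ^ a * copyCount H A := by
  refine ⟨(16 * k) ^ (((2 * k + 3) * (2 * k) + 1 + 2) * (2 * k)),
    ((2 * k + 3) * (2 * k) + 1 + 2) * (2 * k), ?_⟩
  intro T V g n τ A hT hV hg hsyn hvar hfar
  have hX := X_facts T V g k hT hV hg hk
  have eK : (16 * k) ^ (((2 * k + 3) * (2 * k) + 1 + 2) * (2 * k)) *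
      (T * V * g) ^ (((2 * k + 3) * (2 * k) + 1 + 2) * (2 * k)) =
      (16 * T * V * g * k) ^ (((2 * k + 3) * (2 * k) + 1 + 2) * (2 * k)) := by
    rw [← mul_pow]
    congr 1
    ring
  rw [eK]
  rcases Nat.lt_or_ge n ((16 * T * V * g * k) ^ ((2 * k + 3) * (2 * k) + 1 + 2)) with hlt | hge
  · rcases Nat.eq_zero_or_pos n with hn | hn
    · subst hn
      rw [zero_pow (by omega)]
      exact Nat.zero_le _
    · have h1 := TVA.one_le_of_far H T n A hn hfar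
      calc n ^ (2 * k) ≤ ((16 * T * V * g * k) ^ ((2 * k + 3) * (2 * k) + 1 + 2)) ^ (2 * k) :=
            Nat.pow_le_pow_left hlt.le _
        _ = (16 * T * V * g * k) ^ (((2 * k + 3) * (2 * k) + 1 + 2) * (2 * k)) :=
            (pow_mul _ _ _).symm
        _ = (16 * T * V * g * k) ^ (((2 * k + 3) * (2 * k) + 1 + 2) * (2 * k)) * 1 :=
            (mul_one _).symm
        _ ≤ _ := Nat.mul_le_mul_left _ h1
  · have h1 := syn_large H hk T V g n τ A hT hV hg hsyn hvar hfar hge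
    have h2 := const_le k (16 * T * V * g * k) hk hX.2.2.2.2.2.1
      (le_trans (by norm_num) hX.2.2.2.2.2.2.2)
    exact h1.trans (Nat.mul_le_mul_right _ h2)

/-- column version -/
theorem syn_nat_cols (H : Fin k → Fin k → Bool) (hk : 0 < k) :
    ∃ K a : ℕ, ∀ (T V g n : ℕ) (τ : Fin n → ℕ) (A : Fin n → Fin n → Bool), 1 ≤ T → 1 ≤ V → 1 ≤ g →
      Syndetic τ g → classVar τ (fun j i => A i j) ≤ V * n →
      (∀ B : Fin n → Fin n → Bool, HFree H B → n ^ 2 ≤ T * diffCount A B) →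
      n ^ (2 * k) ≤ K * (T * V * g) ^ a * copyCount H A := by
  obtain ⟨K, a, h⟩ := syn_nat (fun j i => H i j) hk
  refine ⟨K, a, ?_⟩
  intro T V g n τ A hT hV hg hsyn hvar hfar
  have h1 := h T V g n τ (fun j i => A i j) hT hV hg hsyn hvar (fun B hB => by
    have h1 := hfar (fun x y => B y x) (FR.hFree_transpose H B hB)
    have h2 := FR.diffCount_transpose A (fun x y => B y x)
    rw [← h2] at h1
    exact h1)
  rw [copyCount_eq_rcount, rcount_transpose, ← copyCount_eq_rcount] at h1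
  exact h1

end Vale.Agent.P037.Syn37
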